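import Mathlib

/-!
P124 (Lipschitz-isomorphism problem).  A single-scale criterion: two real Banach spaces are linearly
isomorphic if and only if there is a bi-Lipschitz bijection between them which, on ONE ball of some
radius `r`, stays within `δ r` of a continuous affine map, where `δ` is smaller than the lower
Lipschitz constant of the bijection.
-/

namespace Vale.Agent.Results.P124.AffineOnOneBall

variable {X Y : Type*} [NormedAddCommGroup X] [NormedSpace ℝ X]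
  [NormedAddCommGroup Y] [NormedSpace ℝ Y]

/-- The linear part is bounded below. -/
lemma bounded_below {f : X → Y} {c δ r : ℝ} (hr : 0 < r) {x₀ : X} {T : X →L[ℝ] Y}
    (hlow : ∀ x x', c * ‖x - x'‖ ≤ ‖f x - f x'‖)
    (happ : ∀ x, ‖x - x₀‖ ≤ r → ‖f x - f x₀ - T (x - x₀)‖ ≤ δ * r) (h : X) :
    (c - δ) * ‖h‖ ≤ ‖T h‖ := by
  rcases eq_or_ne h 0 with rfl | hne
  · simp
  have hn : 0 < ‖h‖ := norm_pos_iff.2 hne
  set k : X := (r / ‖h‖) • h with hk
  have hkn : ‖k‖ = r := by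
    rw [hk, norm_smul, Real.norm_eq_abs, abs_of_pos (by positivity)]
    field_simp
  have h1 := happ (x₀ + k) (by simp [hkn])
  have h2 := hlow (x₀ + k) x₀
  simp only [add_sub_cancel_left] at h1 h2
  rw [hkn] at h2
  have h3 : ‖f (x₀ + k) - f x₀‖ ≤ ‖f (x₀ + k) - f x₀ - T k‖ + ‖T k‖ := by
    have := norm_add_le (f (x₀ + k) - f x₀ - T k) (T k)
    simpa using this
  have h4 : ‖T k‖ = r / ‖h‖ * ‖T h‖ := by
    rw [hk, map_smul, norm_smul, Real.norm_eq_abs, abs_of_pos (by positivity)]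
  have h5 : (c - δ) * r ≤ r / ‖h‖ * ‖T h‖ := by rw [← h4]; linarith
  have h6 : (c - δ) * r * (‖h‖ / r) ≤ r / ‖h‖ * ‖T h‖ * (‖h‖ / r) :=
    mul_le_mul_of_nonneg_right h5 (by positivity)
  have e1 : (c - δ) * r * (‖h‖ / r) = (c - δ) * ‖h‖ := by field_simp
  have e2 : r / ‖h‖ * ‖T h‖ * (‖h‖ / r) = ‖T h‖ := by field_simp
  rwa [e1, e2] at h6

/-- Every vector of `Y` is approximated by the range of the linear part up to the factor `δ / c`. -/
lemma approx_range {f : X → Y} (hsurj : Function.Surjective f) {c δ r : ℝ} (hc : 0 < c)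
    (hr : 0 < r) {x₀ : X} {T : X →L[ℝ] Y}
    (hlow : ∀ x x', c * ‖x - x'‖ ≤ ‖f x - f x'‖)
    (happ : ∀ x, ‖x - x₀‖ ≤ r → ‖f x - f x₀ - T (x - x₀)‖ ≤ δ * r) (y : Y) :
    ∃ h : X, ‖y - T h‖ ≤ δ / c * ‖y‖ := by
  rcases eq_or_ne y 0 with rfl | hne
  · exact ⟨0, by simp⟩
  have hn : 0 < ‖y‖ := norm_pos_iff.2 hne
  set s : ℝ := c * r / ‖y‖ with hs
  have hspos : 0 < s := by positivity
  obtain ⟨x, hx⟩ := hsurj (f x₀ + s • y)
  have hsy : ‖s • y‖ = c * r := by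
    rw [norm_smul, Real.norm_eq_abs, abs_of_pos hspos, hs]; field_simp
  have h1 := hlow x x₀
  rw [hx, add_sub_cancel_left, hsy] at h1
  have h2 : ‖x - x₀‖ ≤ r := le_of_mul_le_mul_left h1 hc
  have h3 := happ x h2
  rw [hx, add_sub_cancel_left] at h3
  refine ⟨s⁻¹ • (x - x₀), ?_⟩
  have e : y - T (s⁻¹ • (x - x₀)) = s⁻¹ • (s • y - T (x - x₀)) := by
    rw [map_smul, smul_sub, smul_smul, inv_mul_cancel₀ hspos.ne', one_smul]
  rw [e, norm_smul, Real.norm_eq_abs, abs_of_pos (inv_pos.2 hspos)]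
  calc s⁻¹ * ‖s • y - T (x - x₀)‖ ≤ s⁻¹ * (δ * r) :=
        mul_le_mul_of_nonneg_left h3 (inv_pos.2 hspos).le
    _ = δ / c * ‖y‖ := by rw [hs]; field_simp

/-- The linear part of the affine approximation is a linear isomorphism onto. -/
lemma bijective_of_approx [CompleteSpace X] {f : X → Y} (hsurj : Function.Surjective f)
    {c δ r : ℝ} (hδc : δ < c) (hc : 0 < c) (hr : 0 < r) {x₀ : X} {T : X →L[ℝ] Y}
    (hlow : ∀ x x', c * ‖x - x'‖ ≤ ‖f x - f x'‖)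
    (happ : ∀ x, ‖x - x₀‖ ≤ r → ‖f x - f x₀ - T (x - x₀)‖ ≤ δ * r) :
    Function.Bijective T := by
  have hb := bounded_below hr hlow happ
  have hpos : 0 < c - δ := by linarith
  have hanti : AntilipschitzWith (Real.toNNReal (c - δ)⁻¹) T := by
    apply ContinuousLinearMap.antilipschitz_of_bound
    intro x
    rw [Real.coe_toNNReal _ (inv_pos.2 hpos).le, inv_mul_eq_div, le_div_iff₀ hpos, mul_comm]
    exact hb x
  refine ⟨hanti.injective, ?_⟩
  have hclosed : IsClosed ((LinearMap.range (T : X →ₗ[ℝ] Y) : Submodule ℝ Y) : Set Y) := by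
    have h := hanti.isClosed_range T.uniformContinuous
    have e : ((LinearMap.range (T : X →ₗ[ℝ] Y) : Submodule ℝ Y) : Set Y) = Set.range T := by
      ext y; simp
    rw [e]; exact h
  by_contra hns
  have hex : ∃ y, y ∉ LinearMap.range (T : X →ₗ[ℝ] Y) := by
    by_contra hall
    apply hns
    intro y
    by_contra hy
    exact hall ⟨y, fun ⟨x, hx⟩ => hy ⟨x, hx⟩⟩
  have hlt : max (δ / c) 0 < 1 := by
    rw [max_lt_iff]; exact ⟨by rw [div_lt_one hc]; exact hδc, one_pos⟩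
  obtain ⟨q, hq1, hq2⟩ := exists_between hlt
  obtain ⟨y₀, hy₀, hfar⟩ := riesz_lemma hclosed hex hq2
  obtain ⟨h, hh⟩ := approx_range hsurj hc hr hlow happ y₀
  have h1 := hfar (T h) ⟨h, rfl⟩
  have hy0 : 0 < ‖y₀‖ := by
    rw [norm_pos_iff]; rintro rfl; exact hy₀ (Submodule.zero_mem _)
  have h2 : q * ‖y₀‖ ≤ δ / c * ‖y₀‖ := le_trans h1 hh
  have h3 : q ≤ δ / c := le_of_mul_le_mul_right h2 hy0
  have h4 : δ / c < q := lt_of_le_of_lt (le_max_left _ _) hq1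
  linarith

theorem result : ∀ (X Y : Type) [NormedAddCommGroup X] [NormedSpace ℝ X] [CompleteSpace X]
    [NormedAddCommGroup Y] [NormedSpace ℝ Y] [CompleteSpace Y],
    (Nonempty (X ≃L[ℝ] Y) ↔
      ∃ (f : X → Y) (c C δ r : ℝ) (x₀ : X) (T : X →L[ℝ] Y),
        Function.Bijective f ∧ 0 < c ∧ δ < c ∧ 0 < r ∧
        (∀ x x', c * ‖x - x'‖ ≤ ‖f x - f x'‖ ∧ ‖f x - f x'‖ ≤ C * ‖x - x'‖) ∧
        (∀ x, ‖x - x₀‖ ≤ r → ‖f x - f x₀ - T (x - x₀)‖ ≤ δ * r)) ∧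
    (∀ (f : X → Y) (c C δ r : ℝ) (x₀ : X) (T : X →L[ℝ] Y),
        Function.Bijective f → 0 < c → δ < c → 0 < r →
        (∀ x x', c * ‖x - x'‖ ≤ ‖f x - f x'‖ ∧ ‖f x - f x'‖ ≤ C * ‖x - x'‖) →
        (∀ x, ‖x - x₀‖ ≤ r → ‖f x - f x₀ - T (x - x₀)‖ ≤ δ * r) →
        Function.Bijective T ∧ ∀ h, (c - δ) * ‖h‖ ≤ ‖T h‖) := by
  intro X Y _ _ _ _ _ _
  have main : ∀ (f : X → Y) (c C δ r : ℝ) (x₀ : X) (T : X →L[ℝ] Y),
        Function.Bijective f → 0 < c → δ < c → 0 < r →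
        (∀ x x', c * ‖x - x'‖ ≤ ‖f x - f x'‖ ∧ ‖f x - f x'‖ ≤ C * ‖x - x'‖) →
        (∀ x, ‖x - x₀‖ ≤ r → ‖f x - f x₀ - T (x - x₀)‖ ≤ δ * r) →
        Function.Bijective T ∧ ∀ h, (c - δ) * ‖h‖ ≤ ‖T h‖ := by
    intro f c C δ r x₀ T hf hc hδ hr hbi happ
    exact ⟨bijective_of_approx hf.2 hδ hc hr (fun x x' => (hbi x x').1) happ,
      bounded_below hr (fun x x' => (hbi x x').1) happ⟩
  refine ⟨⟨?_, ?_⟩, main⟩
  · rintro ⟨e⟩
    have hinv : 0 < ‖(e.symm : Y →L[ℝ] X)‖ + 1 := by positivity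
    refine ⟨e, (‖(e.symm : Y →L[ℝ] X)‖ + 1)⁻¹, ‖(e : X →L[ℝ] Y)‖, 0, 1, 0, e, e.bijective,
      inv_pos.2 hinv, inv_pos.2 hinv, one_pos, ?_, ?_⟩
    · intro x x'
      constructor
      · rw [← map_sub, inv_mul_le_iff₀ hinv]
        have h1 := (e.symm : Y →L[ℝ] X).le_opNorm (e (x - x'))
        simp only [ContinuousLinearEquiv.coe_coe, ContinuousLinearEquiv.symm_apply_apply] at h1
        nlinarith [norm_nonneg (e (x - x'))]
      · rw [← map_sub]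
        exact (e : X →L[ℝ] Y).le_opNorm (x - x')
    · intro x _
      simp
  · rintro ⟨f, c, C, δ, r, x₀, T, hf, hc, hδ, hr, hbi, happ⟩
    obtain ⟨hT, _⟩ := main f c C δ r x₀ T hf hc hδ hr hbi happ
    exact ⟨ContinuousLinearEquiv.ofBijective T (LinearMap.ker_eq_bot.2 hT.1)
      (LinearMap.range_eq_top.2 hT.2)⟩

end Vale.Agent.Results.P124.AffineOnOneBall
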